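/-
helper28 -- S0355 squad (track D): DEFINITIONS.  Sorry-free; imported by every leaf.

The body is `K = T × T ⊂ ℝ^20`, `T = {x ≥ 0, ∑ x ≤ 1} ⊂ ℝ^10` the standard 10-simplex
(blocks: coordinates 0..9 and 10..19).  Everything combinatorial / volumetric is done in the
plain pi type `P20 = Fin 20 → ℝ` (Lebesgue measure = product measure); only the shadow lemma
and the final statement live in `E20 = EuclideanSpace ℝ (Fin 20)`.
-/
import Mathlib

set_option autoImplicit false
open MeasureTheory
open scoped ENNReal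

namespace Crest.Agent.Helper28.S0355

/-- The ambient Euclidean space of the statement. -/
abbrev E20 : Type := EuclideanSpace ℝ (Fin 20)

/-- The hyperplane model. -/
abbrev E19 : Type := EuclideanSpace ℝ (Fin 19)

/-- The same space as a plain pi type (sup norm, product Lebesgue measure). -/
abbrev P20 : Type := Fin 20 → ℝ

/-- First block of coordinates: the indices `0, …, 9`. -/
def B1 : Finset (Fin 20) := Finset.univ.filter (fun i => (i : ℕ) < 10)

/-- Second block: the complement of the first, i.e. the indices `10, …, 19`. -/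
def B2 : Finset (Fin 20) := B1ᶜ

/-- Sum of the coordinates of the first block. -/
def s1 (x : P20) : ℝ := ∑ i ∈ B1, x i

/-- Sum of the coordinates of the second block. -/
def s2 (x : P20) : ℝ := ∑ i ∈ B2, x i

/-- The product of two standard 10-simplices, in the pi type. -/
def KP : Set P20 := {x | (∀ i, 0 ≤ x i) ∧ s1 x ≤ 1 ∧ s2 x ≤ 1}

/-- The body of the statement: the product of two standard 10-simplices in `ℝ^20`. -/
def K : Set E20 := {x | WithLp.ofLp x ∈ KP}

/-- `sweep C u = C + [0,1]·u` (Minkowski sum of `C` with the segment from `0` to `u`). -/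
def sweep {V : Type*} [AddCommGroup V] [Module ℝ V] (C : Set V) (u : V) : Set V :=
  {x | ∃ t ∈ Set.Icc (0 : ℝ) 1, x - t • u ∈ C}

/-- The 22 linear functionals cutting out `KP`:
`KP = {x | ∀ k, lc k x ≤ bc k}` with `lc (inl j) x = - x j`, `lc (inr false) = s1`,
`lc (inr true) = s2`. -/
def lc : Fin 20 ⊕ Bool → P20 → ℝ
  | Sum.inl j, x => - x j
  | Sum.inr false, x => s1 x
  | Sum.inr true, x => s2 x

/-- Right-hand sides of the 22 constraints. -/
def bc : Fin 20 ⊕ Bool → ℝ
  | Sum.inl _ => 0
  | Sum.inr _ => 1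

/-- The facet of `KP` on which constraint `k` is tight. -/
def facet (k : Fin 20 ⊕ Bool) : Set P20 := {x | x ∈ KP ∧ lc k x = bc k}

/-- `κ = 1 / (2 · 9! · 10!)`. -/
noncomputable def κ : ℝ := 1 / (2 * (Nat.factorial 9 : ℝ) * (Nat.factorial 10 : ℝ))

/-- `κ · S u` is the 19-volume of the shadow of `K` in the unit direction `u`
(`S` = support function of the zonotope `W`). -/
def S (u : P20) : ℝ := ∑ i, |u i| + |s1 u| + |s2 u|

/-- One block of the zonotope: `[-1,1]^ι + [-1,1]·𝟙`, written by inequalities. -/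
def Z (ι : Type) : Set (ι → ℝ) := {z | (∀ i, |z i| ≤ 2) ∧ ∀ i j, z i - z j ≤ 2}

/-- The zonotope `Z × Z` (blocks `B1`, `B2`); the projection body of `K` is `κ • W`. -/
def W : Set P20 :=
  {w | (∀ i, |w i| ≤ 2) ∧ (∀ i ∈ B1, ∀ j ∈ B1, w i - w j ≤ 2) ∧ (∀ i ∈ B2, ∀ j ∈ B2, w i - w j ≤ 2)}

end Crest.Agent.Helper28.S0355
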