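/-
helper28 -- S0355 squad (track D): package H0 (algebra).
-/
import Crest.Agent.Helper28.S0355.Defs

set_option autoImplicit false

namespace Crest.Agent.Helper28.S0355

theorem max_neg_zero_eq (a : ℝ) : max (-a) 0 = (|a| - a) / 2 := by
  rcases le_total a 0 with h | h
  · rw [max_eq_left (by linarith), abs_of_nonpos h]; ring
  · rw [max_eq_right (by linarith), abs_of_nonneg h]; ring

theorem max_zero_eq (a : ℝ) : max a 0 = (|a| + a) / 2 := by
  rcases le_total a 0 with h | h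
  · rw [max_eq_right h, abs_of_nonpos h]; ring
  · rw [max_eq_left h, abs_of_nonneg h]; ring

theorem sum_eq_s1_add_s2 (u : P20) : ∑ i, u i = s1 u + s2 u := by
  unfold s1 s2 B2
  exact (Finset.sum_add_sum_compl B1 u).symm

theorem sum_pos_part (u : P20) : ∑ k : Fin 20 ⊕ Bool, max (lc k u) 0 = S u / 2 := by
  rw [Fintype.sum_sum_type, Fintype.sum_bool]
  have h1 : ∀ j : Fin 20, max (lc (Sum.inl j) u) 0 = (|u j| - u j) / 2 := fun j => max_neg_zero_eq (u j)
  have h2 : max (lc (Sum.inr true) u) 0 = (|s2 u| + s2 u) / 2 := max_zero_eq (s2 u)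
  have h3 : max (lc (Sum.inr false) u) 0 = (|s1 u| + s1 u) / 2 := max_zero_eq (s1 u)
  rw [Finset.sum_congr rfl (fun j _ => h1 j), h2, h3, ← Finset.sum_div, Finset.sum_sub_distrib,
    sum_eq_s1_add_s2 u]
  unfold S
  ring

/-- `121·(10!)^18/(9!)^20 = 121·10^20/(10!)^2 = (21·20^20/20!)·(22355476/22020096)`. -/
theorem arith_main :
    (κ ^ 20 * (11 * 2 ^ 10) ^ 2) / (1 / ((Nat.factorial 10 : ℝ) * (Nat.factorial 10 : ℝ))) ^ 19 =
      (21 * 20 ^ 20 / Nat.factorial 20 : ℝ) * (22355476 / 22020096) := by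
  unfold κ
  norm_num [Nat.factorial]

end Crest.Agent.Helper28.S0355
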