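/-
helper28 -- S0355 squad (track D): BLUEPRINT of the leaves.  All bodies are `sorry`;
THIS FILE IS NEVER IMPORTED by graded files.  An owner copies the statement of a leaf (same
name, same signature) into `Crest/Agent/<Seat>/S0355/<Package>.lean`, namespace
`Crest.Agent.<Seat>.S0355`, importing `Crest.Agent.Helper28.S0355.Defs` (definitions only),
proves it sorry-free (axioms: propext, Classical.choice, Quot.sound), runs the forbidden-text
scan, lands the file, updates table `s0355_wp` and posts one line to helper28.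

Maths (notes/s0355/PROOF.md): K = T × T, T the standard 10-simplex.
 * shadow lemma:  vol(C + [0,1]u) = vol(C) + vol_19(P_u C)   (C compact convex, |u| = 1);
 * sweep of the polytope:  K + [0,1]u = K ∪ ⋃_{upper facets F} (F + [0,1]u), overlaps null,
   vol(F + [0,1]u) = |l_F(u)| / (9!·10!)  ⟹  vol_19(P_u K) = κ·S(u);
 * hence ΠK = κ·W, W = Z × Z, Z = [-1,1]^10 + [-1,1]·𝟙, vol Z = 11·2^10;
 * vol K = (1/10!)^2, and the ratio is 121·(10!)^18/(9!)^20 = 121·10^20/(10!)^2.
-/
import Crest.Agent.Helper28.S0355.Defs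

set_option autoImplicit false
open MeasureTheory
open scoped ENNReal Pointwise

namespace Crest.Agent.Helper28.S0355.Blueprint

open Crest.Agent.Helper28.S0355

/-! ## Package A -- Body: topology of `K`, `KP`, facets and sweeps -/

theorem isCompact_KP : IsCompact KP := sorry

theorem isCompact_facet (k : Fin 20 ⊕ Bool) : IsCompact (facet k) := sorry

/-- `sweep C u` is the image of `C × [0,1]` under `(z, t) ↦ z + t • u`. -/
theorem isCompact_sweep {C : Set P20} (hC : IsCompact C) (u : P20) : IsCompact (sweep C u) := sorry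

theorem isCompact_K : IsCompact K := sorry

theorem convex_K : Convex ℝ K := sorry

theorem interior_K_nonempty : (interior K).Nonempty := sorry

/-! ## Package B1 -- Frame: an orthonormal frame adapted to a unit vector `u`

Take an orthonormal basis `b` of `E20` with `b 0 = u`
(`Orthonormal.exists_orthonormalBasis_extension_of_card_eq`), `Θ x = (⟪x,u⟫, coordinates 1..19
of b.repr x)`, `ι y = ∑ i, y i • b i.succ`.  `Θ` is measure preserving as the composition of
`b.repr` (`LinearIsometryEquiv.measurePreserving`), `WithLp.ofLp` (`PiLp.volume_preserving_ofLp`),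
`MeasurableEquiv.piFinSuccAbove (fun _ => ℝ) 0` (`volume_preserving_piFinSuccAbove`) and
`Prod.map id (WithLp.toLp 2)` (`MeasurePreserving.prod`, `PiLp.volume_preserving_toLp`). -/

theorem exists_frame (u : E20) (hu : ‖u‖ = 1) :
    ∃ (Θ : E20 ≃L[ℝ] ℝ × E19) (ι : E19 →ₗᵢ[ℝ] E20),
      MeasurePreserving (⇑Θ) volume volume ∧ Θ u = (1, 0) ∧
        ∀ x : E20, ι (Θ x).2 = x - inner ℝ x u • u := sorry

/-! ## Package B2 -- Fubini: the shadow lemma in product coordinates

`volume = volume.prod volume` (`Measure.volume_eq_prod`); `Measure.prod_apply_symm` gives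
`vol(A) = ∫⁻ y, vol {s | (s, y) ∈ A}`.  For `y ∈ Prod.snd '' D` the fibre of `D` is a nonempty
compact interval `Icc a b` and the fibre of the sweep is `Icc a (b + 1)`; otherwise both are
empty.  All sets are compact, hence measurable. -/

theorem shadow_fubini (D : Set (ℝ × E19)) (hD : IsCompact D)
    (hfib : ∀ y : E19, Set.OrdConnected {s : ℝ | (s, y) ∈ D}) :
    volume (sweep D ((1 : ℝ), (0 : E19))) = volume D + volume (Prod.snd '' D) := sorry

/-! ## Package C1 -- Exit: the combinatorial decomposition of the sweep of the polytope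

Given `x - t • u ∈ KP`, `t ∈ [0,1]`: let `s₀ = max 0 (max over the k with 0 < lc k u of
(lc k x - bc k) / lc k u)`.  Then `s₀ ≤ t`, `x - s₀ • u ∈ KP`, and either `s₀ = 0` (so `x ∈ KP`)
or the maximising `k` is tight at `x - s₀ • u`.  (Every `lc k` is linear:
`lc k (x - s • u) = lc k x - s * lc k u`, and `x ∈ KP ↔ ∀ k, lc k x ≤ bc k`.) -/

theorem mem_KP_iff (x : P20) : x ∈ KP ↔ ∀ k : Fin 20 ⊕ Bool, lc k x ≤ bc k := sorry

theorem lc_sub_smul (k : Fin 20 ⊕ Bool) (x u : P20) (t : ℝ) :
    lc k (x - t • u) = lc k x - t * lc k u := sorry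

theorem sweep_KP_subset (u : P20) :
    sweep KP u ⊆ KP ∪ ⋃ k : Fin 20 ⊕ Bool, if 0 < lc k u then sweep (facet k) u else ∅ := sorry

theorem KP_inter_sweep_facet_subset (u : P20) (k : Fin 20 ⊕ Bool) (hk : 0 < lc k u) :
    KP ∩ sweep (facet k) u ⊆ {x | lc k x = bc k} := sorry

theorem sweep_facet_inter_subset (u : P20) (k k' : Fin 20 ⊕ Bool) (hk : 0 < lc k u)
    (hk' : 0 < lc k' u) :
    sweep (facet k) u ∩ sweep (facet k') u ⊆
      {x | lc k' u * lc k x - lc k u * lc k' x = lc k' u * bc k - lc k u * bc k'} := sorry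

/-! ## Package C2 -- Null: hyperplanes are Lebesgue null

Either `Measure.addHaar_affineSubspace`, or: `{m = c} ⊆ frontier {m ≤ c}` and
`Convex.addHaar_frontier`, or Fubini in one coordinate.  For the pair set the functional
`lc k' u • lc k - lc k u • lc k'` is nonzero because there is `v` with `lc k v = 0 ≠ lc k' v`
(`inl i, inl j`: `v = e_j`; `inl i, inr b`: `v = e_m`, `m ≠ i` in the block; `inr b, inl j`:
`v = e_j - e_m` or `e_j`; `inr b, inr b'`: `v = e_m`, `m` in the block of `b'`). -/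

theorem volume_lc_eq (k : Fin 20 ⊕ Bool) : volume {x : P20 | lc k x = bc k} = 0 := sorry

theorem volume_lc_pair (u : P20) (k k' : Fin 20 ⊕ Bool) (hne : k ≠ k') (hk : 0 < lc k u)
    (hk' : 0 < lc k' u) :
    volume {x : P20 | lc k' u * lc k x - lc k u * lc k' x = lc k' u * bc k - lc k u * bc k'} = 0 :=
  sorry

/-! ## Package C3 -- Union: a finite union with null overlaps (generic measure theory) -/

theorem measure_union_of_null {α ι : Type*} [MeasurableSpace α] (μ : Measure α) [Fintype ι]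
    (A T : Set α) (Bs : ι → Set α) (hT : T ⊆ A ∪ ⋃ i, Bs i) (hA : A ⊆ T) (hB : ∀ i, Bs i ⊆ T)
    (hAm : MeasurableSet A) (hBm : ∀ i, MeasurableSet (Bs i))
    (hAB : ∀ i, μ (A ∩ Bs i) = 0) (hBB : ∀ i j, i ≠ j → μ (Bs i ∩ Bs j) = 0) :
    μ T = μ A + ∑ i, μ (Bs i) := sorry

/-! ## Package E -- Simplex volumes

`volume_simplex`: induction on the cardinality for `Fin n` with a radius
(`vol {y ≥ 0, ∑ y ≤ r} = r^n / n!`, `volume_preserving_piFinSuccAbove`, `Measure.prod_apply`,
`∫_0^r (r - s)^n / n! ds`), then transport along `ι ≃ Fin (card ι)`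
(`volume_measurePreserving_piCongrLeft`).
`volume_split`: `volume_preserving_piEquivPiSubtypeProd` + `Measure.prod_prod`. -/

theorem volume_simplex (ι : Type) [Fintype ι] :
    volume {y : ι → ℝ | (∀ i, 0 ≤ y i) ∧ ∑ i, y i ≤ 1} =
      ENNReal.ofReal (1 / ((Fintype.card ι).factorial : ℝ)) := sorry

theorem volume_split {ι : Type} [Fintype ι] (p : ι → Prop) [DecidablePred p]
    (S1 : Set ({i // p i} → ℝ)) (S2 : Set ({i // ¬ p i} → ℝ)) :
    volume {x : ι → ℝ | (fun i : {i // p i} => x i) ∈ S1 ∧ (fun i : {i // ¬ p i} => x i) ∈ S2} =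
      volume S1 * volume S2 := sorry

theorem volume_twoBlock {ι : Type} [Fintype ι] [DecidableEq ι] (A : Finset ι) :
    volume {y : ι → ℝ | (∀ i, 0 ≤ y i) ∧ ∑ i ∈ A, y i ≤ 1 ∧ ∑ i ∈ Aᶜ, y i ≤ 1} =
      ENNReal.ofReal (1 / ((A.card.factorial : ℝ) * (Aᶜ.card.factorial : ℝ))) := sorry

/-! ## Package D1 -- Prism over a coordinate facet

`sweep (facet (inl j)) u = {x | x j / u j ∈ [0,1] ∧ x - (x j / u j) • u ∈ KP}`.  Split off the
coordinate `j` (`MeasurableEquiv.piFinSuccAbove (fun _ => ℝ) j`, `Measure.prod_apply`): for fixed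
`x j = ξ` the slice is a translate of `G = {y : Fin 19 → ℝ | Fin.insertNth j 0 y ∈ KP}`, and `G` is
the two-block set for `A = {i | j.succAbove i ∈ B1}` (cards 9, 10 or 10, 9).  The hypothesis `hTB`
is `volume_twoBlock` for `Fin 19` (package E), passed as an argument to keep the leaf independent. -/

theorem volume_sweep_facet_inl
    (hTB : ∀ A : Finset (Fin 19),
      volume {y : Fin 19 → ℝ | (∀ i, 0 ≤ y i) ∧ ∑ i ∈ A, y i ≤ 1 ∧ ∑ i ∈ Aᶜ, y i ≤ 1} =
        ENNReal.ofReal (1 / ((A.card.factorial : ℝ) * (Aᶜ.card.factorial : ℝ))))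
    (u : P20) (j : Fin 20) (hj : u j < 0) :
    volume (sweep (facet (Sum.inl j)) u) =
      ENNReal.ofReal (- u j / ((Nat.factorial 9 : ℝ) * (Nat.factorial 10 : ℝ))) := sorry

/-! ## Package D2 -- Prism over a slanted facet, by symmetry

For the block `B` of `b` pick `m ∈ B` (`m = 9` or `m = 19`) and let
`Φ x = Function.update x m (1 - ∑ i ∈ B, x i)`: an affine involution, measure preserving,
`x ∈ KP ↔ Φ x ∈ KP`, `lc (inr b) x = 1 ↔ Φ x m = 0`, `Φ (x - t • u) = Φ x - t • Φ₀ u` with
`Φ₀ u = Function.update u m (- ∑ i ∈ B, u i)`.  Hence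
`sweep (facet (inr b)) u = Φ ⁻¹' sweep (facet (inl m)) (Φ₀ u)` and `hC` applies with
`(Φ₀ u) m = - lc (inr b) u < 0`.  (`Φ` is measure preserving: shear + reflection in the
coordinate `m`; e.g. `volume_preserving_piFinSuccAbove` and `MeasurePreserving.skew_product`, or
`Measure.addHaar_preimage_linearMap` with determinant `-1`.) -/

theorem volume_sweep_facet_inr
    (hC : ∀ (v : P20) (j : Fin 20), v j < 0 →
      volume (sweep (facet (Sum.inl j)) v) =
        ENNReal.ofReal (- v j / ((Nat.factorial 9 : ℝ) * (Nat.factorial 10 : ℝ))))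
    (u : P20) (b : Bool) (hb : 0 < lc (Sum.inr b) u) :
    volume (sweep (facet (Sum.inr b)) u) =
      ENNReal.ofReal (lc (Sum.inr b) u / ((Nat.factorial 9 : ℝ) * (Nat.factorial 10 : ℝ))) := sorry

/-! ## Package F -- Polar: the Wulff shape of `κ·S` is `κ • W`

(⊆) test `u = ± e_j` (`S = 2`) and `u = ± (e_i - e_j)/√2`, `i ≠ j` in one block (`S = √2`).
(⊇) for `w ∈ W` and a block `B` put `c = max (-1) (M - 1)`, `M = max_{i ∈ B} w i`; then
`|c| ≤ 1`, `|w i - c| ≤ 1` on `B`, and
`∑ w i * u i = ∑_B (w i - c) * u i + c * ∑_B u i + … ≤ ∑ |u i| + |s1 u| + |s2 u|` (for every `u`). -/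

theorem polar_eq :
    (⋂ u ∈ Metric.sphere (0 : E20) 1, {x : E20 | inner ℝ x u ≤ κ * S (WithLp.ofLp u)}) =
      WithLp.toLp 2 '' (κ • W) := sorry

/-! ## Package G -- Zonotope volume

`Z = {z | -2 ≤ min z, max z ≤ 2, max z - min z ≤ 2}`.  Upper bound: `Z ⊆ [0,2]^n ∪ ⋃_k A_k`,
`A_k = {z | z k ∈ [-2,0] ∧ ∀ j, z j ∈ [z k, z k + 2]}` (take `k` = argmin if `min z < 0`).
Lower bound: the open cube `(0,2)^n` and the sets `A_k° = {z | z k ∈ (-2,0) ∧ ∀ j ≠ k,
z k < z j < z k + 2}` are pairwise disjoint subsets of `Z`.  Each `A_k`, `A_k°` has volume `2^n`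
(split off the coordinate `k`: for fixed `z k` the slice is a box of side 2). -/

theorem volume_Z (ι : Type) [Fintype ι] :
    volume (Z ι) = ENNReal.ofReal (((Fintype.card ι : ℝ) + 1) * 2 ^ Fintype.card ι) := sorry

/-! ## Package H0 -- Algebra (small) -/

theorem sum_pos_part (u : P20) : ∑ k : Fin 20 ⊕ Bool, max (lc k u) 0 = S u / 2 := sorry

/-- `121·(10!)^18/(9!)^20 = 121·10^20/(10!)^2 = (21·20^20/20!)·(22355476/22020096)`. -/
theorem arith_main :
    (κ ^ 20 * (11 * 2 ^ 10) ^ 2) / (1 / ((Nat.factorial 10 : ℝ) * (Nat.factorial 10 : ℝ))) ^ 19 =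
      (21 * 20 ^ 20 / Nat.factorial 20 : ℝ) * (22355476 / 22020096) := sorry

end Crest.Agent.Helper28.S0355.Blueprint
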