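/-
helper28 -- S0355 squad (track D): package B1 (Frame).
-/
import Crest.Agent.Helper28.S0355.Defs

set_option autoImplicit false
open MeasureTheory
open scoped ENNReal

namespace Crest.Agent.Helper28.S0355

/-- an orthonormal basis whose first vector is a given unit vector -/
theorem exists_basis (u : E20) (hu : ‖u‖ = 1) :
    ∃ b : OrthonormalBasis (Fin 20) ℝ E20, b 0 = u := by
  have hcard : Module.finrank ℝ E20 = Fintype.card (Fin 20) := by simp
  have hv : Orthonormal ℝ (({0} : Set (Fin 20)).domRestrict (fun _ : Fin 20 => u)) := by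
    refine ⟨fun i => hu, fun i j hij => ?_⟩
    exfalso
    apply hij
    apply Subtype.ext
    rw [i.2, j.2]
  obtain ⟨b, hb⟩ := Orthonormal.exists_orthonormalBasis_extension_of_card_eq hcard hv
  exact ⟨b, hb 0 rfl⟩

/-- splitting off the first coordinate, as a linear equivalence -/
noncomputable def splitL : EuclideanSpace ℝ (Fin 20) ≃ₗ[ℝ] ℝ × E19 where
  toFun x := (x 0, WithLp.toLp 2 (fun i : Fin 19 => x i.succ))
  invFun p := WithLp.toLp 2 (Fin.cons p.1 (fun i : Fin 19 => p.2 i) : Fin 20 → ℝ)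
  map_add' x y := by
    ext <;> simp
  map_smul' c x := by
    ext <;> simp
  left_inv x := by
    ext i
    refine Fin.cases ?_ (fun j => ?_) i <;> simp
  right_inv p := by
    ext <;> simp

theorem splitL_apply (x : EuclideanSpace ℝ (Fin 20)) :
    splitL x = (x 0, WithLp.toLp 2 (fun i : Fin 19 => x i.succ)) := rfl

theorem splitL_eq :
    (⇑splitL : EuclideanSpace ℝ (Fin 20) → ℝ × E19) =
      Prod.map id (WithLp.toLp 2) ∘ (MeasurableEquiv.piFinSuccAbove (fun _ : Fin 20 => ℝ) 0) ∘
        (WithLp.ofLp : EuclideanSpace ℝ (Fin 20) → Fin 20 → ℝ) := by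
  funext x
  simp [splitL_apply, MeasurableEquiv.piFinSuccAbove, Fin.insertNthEquiv]
  rfl

theorem splitL_measurePreserving :
    MeasurePreserving (⇑splitL : EuclideanSpace ℝ (Fin 20) → ℝ × E19) volume volume := by
  rw [splitL_eq]
  have h1 : MeasurePreserving (WithLp.ofLp : EuclideanSpace ℝ (Fin 20) → Fin 20 → ℝ) volume volume :=
    PiLp.volume_preserving_ofLp (Fin 20)
  have h2 : MeasurePreserving (MeasurableEquiv.piFinSuccAbove (fun _ : Fin 20 => ℝ) 0) volume volume :=
    volume_preserving_piFinSuccAbove (fun _ : Fin 20 => ℝ) 0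
  have h3 : MeasurePreserving (Prod.map (id : ℝ → ℝ) (WithLp.toLp 2 : (Fin 19 → ℝ) → E19))
      (volume.prod volume) (volume.prod volume) :=
    (MeasurePreserving.id volume).prod (PiLp.volume_preserving_toLp (Fin 19))
  exact h3.comp (h2.comp h1)

/-- the embedding of the hyperplane `x 0 = 0` -/
noncomputable def embL : E19 →ₗᵢ[ℝ] EuclideanSpace ℝ (Fin 20) where
  toFun y := WithLp.toLp 2 (Fin.cons 0 (fun i : Fin 19 => y i) : Fin 20 → ℝ)
  map_add' x y := by
    ext i
    refine Fin.cases ?_ (fun j => ?_) i <;> simp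
  map_smul' c x := by
    ext i
    refine Fin.cases ?_ (fun j => ?_) i <;> simp
  norm_map' y := by
    rw [EuclideanSpace.norm_eq, EuclideanSpace.norm_eq, Fin.sum_univ_succ]
    simp

theorem embL_apply (y : E19) :
    embL y = WithLp.toLp 2 (Fin.cons 0 (fun i : Fin 19 => y i) : Fin 20 → ℝ) := rfl

theorem exists_frame (u : E20) (hu : ‖u‖ = 1) :
    ∃ (Θ : E20 ≃L[ℝ] ℝ × E19) (ι : E19 →ₗᵢ[ℝ] E20),
      MeasurePreserving (⇑Θ) volume volume ∧ Θ u = (1, 0) ∧
        ∀ x : E20, ι (Θ x).2 = x - inner ℝ x u • u := by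
  obtain ⟨b, hb⟩ := exists_basis u hu
  let R : E20 ≃ₗᵢ[ℝ] EuclideanSpace ℝ (Fin 20) := b.repr
  let Θ₀ : E20 ≃ₗ[ℝ] ℝ × E19 := R.toLinearEquiv.trans splitL
  refine ⟨Θ₀.toContinuousLinearEquiv, R.symm.toLinearIsometry.comp embL, ?_, ?_, ?_⟩
  · have hR : MeasurePreserving (⇑R) volume volume := R.measurePreserving
    exact splitL_measurePreserving.comp hR
  · have hRu : R u = EuclideanSpace.single 0 (1 : ℝ) := by
      rw [← hb]
      exact b.repr_self 0
    show splitL (R u) = (1, 0)
    rw [hRu, splitL_apply]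
    ext
    · simp
    · simp
  · intro x
    show R.symm (embL (splitL (R x)).2) = x - inner ℝ x u • u
    have hx0 : (R x) 0 = inner ℝ x u := by
      show b.repr x 0 = inner ℝ x u
      rw [b.repr_apply_apply, hb, real_inner_comm]
    have hRu : R u = EuclideanSpace.single 0 (1 : ℝ) := by
      rw [← hb]
      exact b.repr_self 0
    have key : embL (splitL (R x)).2 = R (x - inner ℝ x u • u) := by
      rw [map_sub, map_smul, hRu, ← hx0, splitL_apply, embL_apply]
      ext i
      refine Fin.cases ?_ (fun j => ?_) i <;> simp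
    rw [key]
    exact R.symm_apply_apply _

end Crest.Agent.Helper28.S0355
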