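/-
helper28 -- S0355 squad (track D): package B2 (Fubini), coordinator's hedge copy.
-/
import Crest.Agent.Helper28.S0355.Defs

set_option autoImplicit false
open MeasureTheory
open scoped ENNReal

namespace Crest.Agent.Helper28.S0355

/-- a compact order-connected nonempty subset of `ℝ` is a closed interval -/
theorem eq_Icc_of_compact_ordConnected {F : Set ℝ} (hc : IsCompact F) (ho : F.OrdConnected)
    (hne : F.Nonempty) : ∃ a b : ℝ, a ≤ b ∧ F = Set.Icc a b := by
  refine ⟨sInf F, sSup F, ?_, ?_⟩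
  · obtain ⟨x, hx⟩ := hne
    exact (csInf_le hc.bddBelow hx).trans (le_csSup hc.bddAbove hx)
  · apply Set.Subset.antisymm
    · intro x hx
      exact ⟨csInf_le hc.bddBelow hx, le_csSup hc.bddAbove hx⟩
    · exact ho.out (hc.sInf_mem hne) (hc.sSup_mem hne)

theorem sweep_fibre (D : Set (ℝ × E19)) (y : E19) :
    (fun s : ℝ => (s, y)) ⁻¹' (sweep D ((1 : ℝ), (0 : E19))) =
      {s : ℝ | ∃ t ∈ Set.Icc (0 : ℝ) 1, s - t ∈ (fun s : ℝ => (s, y)) ⁻¹' D} := by
  ext s
  simp only [sweep, Set.mem_preimage, Set.mem_ofPred_eq]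
  have : ∀ t : ℝ, ((s, y) : ℝ × E19) - t • ((1 : ℝ), (0 : E19)) = (s - t, y) := by
    intro t
    ext1 <;> simp
  simp only [this]

theorem sweep_Icc (a b : ℝ) (hab : a ≤ b) :
    {s : ℝ | ∃ t ∈ Set.Icc (0 : ℝ) 1, s - t ∈ Set.Icc a b} = Set.Icc a (b + 1) := by
  ext s
  simp only [Set.mem_ofPred_eq, Set.mem_Icc]
  constructor
  · rintro ⟨t, ⟨ht0, ht1⟩, h1, h2⟩
    exact ⟨by linarith, by linarith⟩
  · rintro ⟨h1, h2⟩
    refine ⟨max 0 (s - b), ⟨le_max_left _ _, max_le zero_le_one (by linarith)⟩, ?_, ?_⟩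
    · rcases le_total 0 (s - b) with h | h
      · rw [max_eq_right h]; linarith
      · rw [max_eq_left h]; linarith
    · have := le_max_right 0 (s - b)
      linarith

theorem shadow_fubini (D : Set (ℝ × E19)) (hD : IsCompact D)
    (hfib : ∀ y : E19, Set.OrdConnected {s : ℝ | (s, y) ∈ D}) :
    volume (sweep D ((1 : ℝ), (0 : E19))) = volume D + volume (Prod.snd '' D) := by
  have hDm : MeasurableSet D := hD.isClosed.measurableSet
  -- the sweep is compact
  have hsw : sweep D ((1 : ℝ), (0 : E19)) =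
      (fun q : (ℝ × E19) × ℝ => q.1 + q.2 • ((1 : ℝ), (0 : E19))) '' (D ×ˢ Set.Icc (0 : ℝ) 1) := by
    ext x
    simp only [sweep, Set.mem_ofPred_eq, Set.mem_image, Set.mem_prod, Prod.exists]
    constructor
    · rintro ⟨t, ht, hx⟩
      exact ⟨_, _, t, ⟨hx, ht⟩, by simp⟩
    · rintro ⟨a, b, t, ⟨hx, ht⟩, rfl⟩
      refine ⟨t, ht, ?_⟩
      simpa using hx
  have hD'c : IsCompact (sweep D ((1 : ℝ), (0 : E19))) := by
    rw [hsw]
    apply (hD.prod isCompact_Icc).image
    fun_prop
  have hD'm : MeasurableSet (sweep D ((1 : ℝ), (0 : E19))) := hD'c.isClosed.measurableSet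
  have hPc : IsCompact (Prod.snd '' D) := hD.image continuous_snd
  have hPm : MeasurableSet (Prod.snd '' D) := hPc.isClosed.measurableSet
  -- fibres
  have hfibre : ∀ y : E19,
      volume ((fun s : ℝ => (s, y)) ⁻¹' (sweep D ((1 : ℝ), (0 : E19)))) =
        volume ((fun s : ℝ => (s, y)) ⁻¹' D) + (Prod.snd '' D).indicator (fun _ => (1 : ℝ≥0∞)) y := by
    intro y
    by_cases hy : y ∈ Prod.snd '' D
    · rw [Set.indicator_of_mem hy]
      have hne : ((fun s : ℝ => (s, y)) ⁻¹' D).Nonempty := by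
        obtain ⟨⟨s, y'⟩, hp, rfl⟩ := hy
        exact ⟨s, hp⟩
      have hcl : IsClosed ((fun s : ℝ => (s, y)) ⁻¹' D) :=
        hD.isClosed.preimage (by fun_prop)
      have hcomp : IsCompact ((fun s : ℝ => (s, y)) ⁻¹' D) := by
        apply (hD.image continuous_fst).of_isClosed_subset hcl
        intro s hs
        exact ⟨(s, y), hs, rfl⟩
      obtain ⟨a, b, hab, hF⟩ := eq_Icc_of_compact_ordConnected hcomp (hfib y) hne
      rw [sweep_fibre, hF, sweep_Icc a b hab, Real.volume_Icc, Real.volume_Icc,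
        ← ENNReal.ofReal_one, ← ENNReal.ofReal_add (by linarith) zero_le_one]
      congr 1
      ring
    · rw [Set.indicator_of_notMem hy, add_zero]
      have hemp : (fun s : ℝ => (s, y)) ⁻¹' D = ∅ := by
        ext s
        simp only [Set.mem_preimage, Set.mem_empty_iff_false, iff_false]
        intro hs
        exact hy ⟨(s, y), hs, rfl⟩
      rw [sweep_fibre, hemp]
      simp
  rw [Measure.volume_eq_prod, Measure.prod_apply_symm hD'm, Measure.prod_apply_symm hDm]
  simp only [hfibre]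
  rw [lintegral_add_right _ (measurable_const.indicator hPm), lintegral_indicator_const hPm, one_mul]

end Crest.Agent.Helper28.S0355
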