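/-
helper28 -- S0355 squad (track D): package B3 (the shadow lemma in `E20`), from B1 (Frame) and
B2 (Fubini).
-/
import Crest.Agent.Helper28.S0355.Frame
import Crest.Agent.Helper28.S0355.Fubini

set_option autoImplicit false
open MeasureTheory
open scoped ENNReal

namespace Crest.Agent.Helper28.S0355

/-- **Shadow lemma.** For a compact convex `C` and a unit vector `u`,
`vol (C + [0,1]u) = vol C + vol₁₉ (P_u C)`. -/
theorem shadow_eq_sweep (C : Set E20) (hC : IsCompact C) (hconv : Convex ℝ C) (u : E20)
    (hu : ‖u‖ = 1) :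
    volume (sweep C u) =
      volume C + (μHE[19] : Measure E20) ((fun y => y - inner ℝ y u • u) '' C) := by
  obtain ⟨Θ, ι, hmp, hΘu, hι⟩ := exists_frame u hu
  set D : Set (ℝ × E19) := Θ '' C with hDdef
  have hD : IsCompact D := hC.image Θ.continuous
  have hDconv : Convex ℝ D := hconv.linear_image Θ.toLinearMap
  have hfib : ∀ y : E19, Set.OrdConnected {s : ℝ | (s, y) ∈ D} := by
    intro y
    apply Convex.ordConnected
    intro a ha b hb α β hα hβ hαβ
    have h := hDconv ha hb hα hβ hαβ
    have e : α • ((a, y) : ℝ × E19) + β • ((b, y) : ℝ × E19) = (α • a + β • b, y) := by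
      ext1
      · simp
      · simp only [Prod.snd_add, Prod.smul_snd]
        rw [← add_smul, hαβ, one_smul]
    rw [e] at h
    exact h
  have hlin : ∀ (x : E20) (t : ℝ), Θ x - t • ((1 : ℝ), (0 : E19)) = Θ (x - t • u) := by
    intro x t
    rw [map_sub, map_smul, hΘu]
  have hsweep : sweep C u = Θ ⁻¹' (sweep D (1, 0)) := by
    ext x
    simp only [sweep, Set.mem_ofPred_eq, Set.mem_preimage]
    constructor
    · rintro ⟨t, ht, hx⟩
      refine ⟨t, ht, ?_⟩
      rw [hlin]
      exact Set.mem_image_of_mem _ hx
    · rintro ⟨t, ht, hx⟩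
      refine ⟨t, ht, ?_⟩
      rw [hlin] at hx
      obtain ⟨c, hc, hcx⟩ := hx
      rwa [← Θ.injective hcx]
  have hCD : C = Θ ⁻¹' D := by
    ext x
    constructor
    · intro hx
      exact Set.mem_image_of_mem _ hx
    · rintro ⟨c, hc, hcx⟩
      rwa [← Θ.injective hcx]
  let e : E20 ≃ᵐ ℝ × E19 := Θ.toHomeomorph.toMeasurableEquiv
  have hmp' : MeasurePreserving e volume volume := hmp
  have h1 : volume (sweep C u) = volume (sweep D ((1 : ℝ), (0 : E19))) := by
    rw [hsweep]
    exact hmp'.measure_preimage_equiv _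
  have h2 : volume C = volume D := by
    conv_lhs => rw [hCD]
    exact hmp'.measure_preimage_equiv _
  have h3 : (μHE[19] : Measure E20) ((fun y => y - inner ℝ y u • u) '' C) =
      volume (Prod.snd '' D) := by
    have himg : (fun y => y - inner ℝ y u • u) '' C = ι '' (Prod.snd '' D) := by
      rw [hDdef, Set.image_image, Set.image_image]
      apply Set.image_congr
      intro x _
      exact (hι x).symm
    rw [himg, ι.isometry.euclideanHausdorffMeasure_image,
      EuclideanSpace.euclideanHausdorffMeasure_eq_volume]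
  rw [h1, h2, h3]
  exact shadow_fubini D hD hfib

end Crest.Agent.Helper28.S0355
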