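/-
helper28 -- S0355 squad (track D): FINAL ASSEMBLY (C4, E4, G2, H1, H2) from the landed leaves.
-/
import Crest.Agent.Helper13.S0355.Split
import Crest.Agent.Helper13.S0355.TwoBlock
import Crest.Agent.Helper21.S0355.Prism
import Crest.Agent.Helper28.S0355.Algebra
import Crest.Agent.Helper28.S0355.Shadow
import Crest.Agent.Helper42.S0355.Null
import Crest.Agent.Helper42.S0355.Union
import Crest.Agent.Helper51.S0355.PrismSlant
import Crest.Agent.Helper64.S0355.Polar
import Crest.Agent.Helper73.S0355.Body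
import Crest.Agent.Helper88.S0355.VolZ
import Crest.Agent.Helper9.S0355.Exit

set_option autoImplicit false
open MeasureTheory
open scoped ENNReal Pointwise

namespace Crest.Agent.Helper28.S0355.Final

open Crest.Agent.Helper28.S0355

/-! ### C4: the volume of the sweep of the polytope -/

theorem volume_sweep_KP (u : P20) :
    volume (sweep KP u) =
      volume KP + ∑ k : Fin 20 ⊕ Bool, if 0 < lc k u then volume (sweep (facet k) u) else 0 := by
  have hfacet : ∀ k, facet k ⊆ KP := fun k x hx => hx.1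
  have hmono : ∀ k, sweep (facet k) u ⊆ sweep KP u := by
    rintro k x ⟨t, ht, hx⟩
    exact ⟨t, ht, hfacet k hx⟩
  have key := Crest.Agent.Helper42.S0355.measure_union_of_null (volume : Measure P20) KP (sweep KP u)
    (fun k : Fin 20 ⊕ Bool => if 0 < lc k u then sweep (facet k) u else ∅)
    (Crest.Agent.Helper9.S0355.sweep_KP_subset u)
    (by
      intro x hx
      exact ⟨0, ⟨le_refl _, zero_le_one⟩, by simpa using hx⟩)
    (by
      intro k
      split_ifs with h
      · exact hmono k
      · exact Set.empty_subset _)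
    Crest.Agent.Helper73.S0355.isCompact_KP.measurableSet
    (by
      intro k
      split_ifs with h
      · exact (Crest.Agent.Helper73.S0355.isCompact_sweep (Crest.Agent.Helper73.S0355.isCompact_facet k) u).measurableSet
      · exact MeasurableSet.empty)
    (by
      intro k
      split_ifs with h
      · exact measure_mono_null (Crest.Agent.Helper9.S0355.KP_inter_sweep_facet_subset u k h)
          (Crest.Agent.Helper42.S0355.volume_lc_eq k)
      · simp)
    (by
      intro k k' hne
      by_cases h : 0 < lc k u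
      · by_cases h' : 0 < lc k' u
        · rw [if_pos h, if_pos h']
          exact measure_mono_null (Crest.Agent.Helper9.S0355.sweep_facet_inter_subset u k k' h h')
            (Crest.Agent.Helper42.S0355.volume_lc_pair u k k' hne h h')
        · rw [if_neg h']
          simp
      · rw [if_neg h]
        simp)
  rw [key]
  congr 1
  apply Finset.sum_congr rfl
  intro k _
  split_ifs with h
  · rfl
  · simp

/-! ### E4: the volume of `KP` -/

theorem card_B1 : B1.card = 10 := by decide

theorem card_B1_compl : B1ᶜ.card = 10 := by decide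

theorem volume_KP :
    volume KP = ENNReal.ofReal (1 / ((Nat.factorial 10 : ℝ) * (Nat.factorial 10 : ℝ))) := by
  have h := Crest.Agent.Helper13.S0355.volume_twoBlock B1
  rw [card_B1, card_B1_compl] at h
  exact h

/-! ### H1: the shadow of `K` -/

theorem ofLp_preimage_sweep (u : E20) :
    sweep K u = WithLp.ofLp ⁻¹' (sweep KP (WithLp.ofLp u)) := by
  ext x
  simp only [sweep, K, Set.mem_ofPred_eq, Set.mem_preimage, WithLp.ofLp_sub, WithLp.ofLp_smul]

theorem volume_preimage_ofLp (s : Set P20) :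
    volume ((WithLp.ofLp : E20 → P20) ⁻¹' s) = volume s :=
  (EuclideanSpace.volume_preserving_symm_measurableEquiv_toLp (Fin 20)).measure_preimage_equiv s

theorem volume_K : volume K = volume KP := volume_preimage_ofLp KP

theorem facet_term (u : P20) (k : Fin 20 ⊕ Bool) :
    (if 0 < lc k u then volume (sweep (facet k) u) else 0) =
      ENNReal.ofReal (max (lc k u) 0 / ((Nat.factorial 9 : ℝ) * (Nat.factorial 10 : ℝ))) := by
  split_ifs with h
  · rw [max_eq_left h.le]
    rcases k with j | b
    · have hj : u j < 0 := by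
        have : lc (Sum.inl j) u = - u j := rfl
        rw [this] at h
        linarith
      exact Crest.Agent.Helper21.S0355.volume_sweep_facet_inl (fun A => Crest.Agent.Helper13.S0355.volume_twoBlock A) u j hj
    · exact Crest.Agent.Helper51.S0355.volume_sweep_facet_inr
        (Crest.Agent.Helper21.S0355.volume_sweep_facet_inl (fun A => Crest.Agent.Helper13.S0355.volume_twoBlock A)) u b h
  · rw [max_eq_right (not_lt.mp h), zero_div, ENNReal.ofReal_zero]

theorem volume_sweep_KP' (u : P20) :
    volume (sweep KP u) = volume KP + ENNReal.ofReal (κ * S u) := by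
  rw [volume_sweep_KP]
  congr 1
  rw [Finset.sum_congr rfl (fun k _ => facet_term u k),
    ← ENNReal.ofReal_sum_of_nonneg (fun k _ => by positivity), ← Finset.sum_div,
    sum_pos_part]
  congr 1
  unfold κ
  field_simp

theorem shadow_formula (u : E20) (hu : ‖u‖ = 1) :
    (μHE[19] : Measure E20) ((fun y => y - inner ℝ y u • u) '' K) =
      ENNReal.ofReal (κ * S (WithLp.ofLp u)) := by
  have h1 := shadow_eq_sweep K Crest.Agent.Helper73.S0355.isCompact_K Crest.Agent.Helper73.S0355.convex_K u hu
  rw [ofLp_preimage_sweep, volume_preimage_ofLp, volume_K, volume_sweep_KP'] at h1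
  have hfin : volume KP ≠ ⊤ := by
    rw [volume_KP]
    exact ENNReal.ofReal_ne_top
  exact ((ENNReal.add_right_inj hfin).mp h1).symm

/-! ### G2: the volume of `W` -/

theorem volume_W : volume W = ENNReal.ofReal ((11 * 2 ^ 10) ^ 2) := by
  have hW : W = {x : P20 | (fun i : {i // i ∈ B1} => x i) ∈ Z {i // i ∈ B1} ∧
      (fun i : {i // ¬ i ∈ B1} => x i) ∈ Z {i // ¬ i ∈ B1}} := by
    ext w
    simp only [W, Z, Set.mem_ofPred_eq, B2, Finset.mem_compl]
    constructor
    · rintro ⟨h0, h1, h2⟩
      exact ⟨⟨fun i => h0 i, fun i j => h1 i i.2 j j.2⟩, ⟨fun i => h0 i, fun i j => h2 i i.2 j j.2⟩⟩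
    · rintro ⟨⟨a1, a2⟩, ⟨b1, b2⟩⟩
      refine ⟨fun i => ?_, fun i hi j hj => a2 ⟨i, hi⟩ ⟨j, hj⟩, fun i hi j hj => b2 ⟨i, hi⟩ ⟨j, hj⟩⟩
      by_cases hi : i ∈ B1
      · exact a1 ⟨i, hi⟩
      · exact b1 ⟨i, hi⟩
  have c1 : ∀ [Fintype {i // i ∈ B1}], Fintype.card {i // i ∈ B1} = 10 := by
    intro inst
    rw [Fintype.card_of_subtype B1 (fun _ => Iff.rfl)]
    exact card_B1
  have c2 : ∀ [Fintype {i // ¬ i ∈ B1}], Fintype.card {i // ¬ i ∈ B1} = 10 := by
    intro inst
    rw [Fintype.card_of_subtype B1ᶜ (fun x => by simp)]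
    exact card_B1_compl
  have key : ∀ (i1 : Fintype {i // i ∈ B1}) (i2 : Fintype {i // ¬ i ∈ B1}),
      ENNReal.ofReal (((@Fintype.card {i // i ∈ B1} i1 : ℝ) + 1) * 2 ^ (@Fintype.card {i // i ∈ B1} i1)) *
        ENNReal.ofReal (((@Fintype.card {i // ¬ i ∈ B1} i2 : ℝ) + 1) *
          2 ^ (@Fintype.card {i // ¬ i ∈ B1} i2)) = ENNReal.ofReal ((11 * 2 ^ 10) ^ 2) := by
    intro i1 i2
    rw [c1, c2, ← ENNReal.ofReal_mul (by positivity)]
    congr 1
    norm_num
  rw [hW, Crest.Agent.Helper13.S0355.volume_split (fun i => i ∈ B1), Crest.Agent.Helper88.S0355.volume_Z, Crest.Agent.Helper88.S0355.volume_Z]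
  exact key _ _

/-! ### H2: the statement -/

theorem κ_pos : 0 < κ := by
  unfold κ
  positivity

theorem S_nonneg (u : P20) : 0 ≤ S u := by
  unfold S
  positivity

theorem polar_set_eq :
    (⋂ u ∈ Metric.sphere (0 : E20) 1,
        {x : E20 | inner ℝ x u ≤
          ((μHE[19] : Measure E20) ((fun y => y - inner ℝ y u • u) '' K)).toReal}) =
      WithLp.toLp 2 '' (κ • W) := by
  rw [← Crest.Agent.Helper64.S0355.polar_eq]
  apply Set.iInter₂_congr
  intro u hu
  have hu1 : ‖u‖ = 1 := by simpa using hu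
  rw [shadow_formula u hu1, ENNReal.toReal_ofReal (mul_nonneg κ_pos.le (S_nonneg _))]

theorem volume_polar :
    volume (WithLp.toLp 2 '' (κ • W) : Set E20) = ENNReal.ofReal (κ ^ 20 * (11 * 2 ^ 10) ^ 2) := by
  have himg : (WithLp.toLp 2 '' (κ • W) : Set E20) = WithLp.ofLp ⁻¹' (κ • W) := by
    ext x
    constructor
    · rintro ⟨w, hw, rfl⟩
      exact hw
    · intro hx
      exact ⟨WithLp.ofLp x, hx, rfl⟩
  rw [himg, volume_preimage_ofLp, Measure.addHaar_smul, volume_W,
    ← ENNReal.ofReal_mul (abs_nonneg _)]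
  congr 1
  have : Module.finrank ℝ P20 = 20 := by simp
  rw [this, abs_of_pos (pow_pos κ_pos 20)]

theorem result_final :
    ∃ K : Set (EuclideanSpace ℝ (Fin 20)), IsCompact K ∧ Convex ℝ K ∧ (interior K).Nonempty ∧
      (volume (⋂ u ∈ Metric.sphere (0 : EuclideanSpace ℝ (Fin 20)) 1,
            {x : EuclideanSpace ℝ (Fin 20) | inner ℝ x u ≤
              ((μHE[19] : Measure (EuclideanSpace ℝ (Fin 20))) ((fun y => y - inner ℝ y u • u) '' K)).toReal})).toReal /
          (volume K).toReal ^ 19 =
        (21 * 20 ^ 20 / Nat.factorial 20 : ℝ) * (22355476 / 22020096) ∧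
      (21 * 20 ^ 20 / Nat.factorial 20 : ℝ) * (volume K).toReal ^ 19 <
        (volume (⋂ u ∈ Metric.sphere (0 : EuclideanSpace ℝ (Fin 20)) 1,
            {x : EuclideanSpace ℝ (Fin 20) | inner ℝ x u ≤
              ((μHE[19] : Measure (EuclideanSpace ℝ (Fin 20))) ((fun y => y - inner ℝ y u • u) '' K)).toReal})).toReal := by
  refine ⟨K, Crest.Agent.Helper73.S0355.isCompact_K, Crest.Agent.Helper73.S0355.convex_K, Crest.Agent.Helper73.S0355.interior_K_nonempty, ?_⟩
  have hPi := polar_set_eq
  have hK : (volume K).toReal = 1 / ((Nat.factorial 10 : ℝ) * (Nat.factorial 10 : ℝ)) := by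
    rw [volume_K, volume_KP, ENNReal.toReal_ofReal (by positivity)]
  have hP : (volume (WithLp.toLp 2 '' (κ • W) : Set E20)).toReal = κ ^ 20 * (11 * 2 ^ 10) ^ 2 := by
    rw [volume_polar, ENNReal.toReal_ofReal (by have := κ_pos; positivity)]
  have hratio : (volume (WithLp.toLp 2 '' (κ • W) : Set E20)).toReal / (volume K).toReal ^ 19 =
      (21 * 20 ^ 20 / Nat.factorial 20 : ℝ) * (22355476 / 22020096) := by
    rw [hP, hK]
    exact arith_main
  have hKpos : 0 < (volume K).toReal ^ 19 := by
    rw [hK]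
    positivity
  rw [hPi]
  refine ⟨hratio, ?_⟩
  rw [div_eq_iff hKpos.ne'] at hratio
  rw [hratio]
  have hc : (0 : ℝ) < 21 * 20 ^ 20 / Nat.factorial 20 := by positivity
  have : (21 * 20 ^ 20 / (Nat.factorial 20 : ℝ)) * (volume K).toReal ^ 19 * 1 <
      (21 * 20 ^ 20 / (Nat.factorial 20 : ℝ)) * (volume K).toReal ^ 19 * (22355476 / 22020096) := by
    apply mul_lt_mul_of_pos_left _ (mul_pos hc hKpos)
    norm_num
  linarith

end Crest.Agent.Helper28.S0355.Final
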